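import Vale.Agent.P246.T.MX
import Vale.Agent.P246.T.MS
import Vale.Agent.P246.T.FM
import Vale.Agent.P246.T.CL
import Vale.Agent.P246.T.CC
import Vale.Agent.P246.T.PR
import Vale.Agent.P246.T.PR2
import Vale.Agent.P246.R2.H429.Defs4
import Mathlib.Analysis.Normed.Module.Connected

/-! # P246, fourth wave, row TW4: the finite model of the covering of a wedge with two-spheres -/

set_option linter.all false

namespace Vale.Agent.P246.R2.H313.TW4

open Topology Metric Set Vale.Agent.P246 Vale.Agent.P246.T Vale.Agent.P246.H429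

theorem sub {W : Type} [TopologicalSpace W] {C B : Set W} {t : ℕ} (h : Sph C B t) : C ⊆ B := by
  induction h with
  | base => exact subset_rfl
  | cell Φ a _ _ _ hat ih => rw [hat.eq]; exact ih.trans subset_union_left

/-- a lift of a disc with a constant boundary has a constant boundary -/
theorem bdry_const {G W F : Type} [Group G] [TopologicalSpace W]
    [TopologicalSpace F] [MulAction G F] {q : C(F, W)}
    (hq : IsQuotientCoveringMap q G) (Ψ : C(Dk 2, F)) (a : W)
    (h : ∀ z : Dk 2, ‖(z : Fin 2 → ℝ)‖ = 1 → q (Ψ z) = a) :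
    ∃ e : F, q e = a ∧ ∀ z : Dk 2, z ∈ bdk 2 → Ψ z = e := by
  have hrank : 1 < Module.rank ℝ (Fin 2 → ℝ) := by
    rw [rank_fin_fun]
    norm_num
  have hpre : IsPreconnected (sphere (0 : Fin 2 → ℝ) 1) := isPreconnected_sphere hrank 0 1
  have hps : PreconnectedSpace (sphere (0 : Fin 2 → ℝ) 1) :=
    Subtype.preconnectedSpace hpre
  have hcov : IsCoveringMap q := hq.isCoveringMap
  have hdisc : DiscreteTopology (q ⁻¹' {a} : Set F) := (hcov a).1
  let f : sphere (0 : Fin 2 → ℝ) 1 → (q ⁻¹' {a} : Set F) := fun x =>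
    ⟨Ψ ⟨x.1, sphere_subset_closedBall x.2⟩, h _ (mem_sphere_zero_iff_norm.1 x.2)⟩
  have hf : Continuous f := by
    refine Continuous.subtype_mk ?_ _
    refine Ψ.continuous.comp ?_
    exact Continuous.subtype_mk continuous_subtype_val _
  have h1 : ‖(fun _ : Fin 2 => (1 : ℝ))‖ = 1 := by
    rw [pi_norm_const]
    exact norm_one
  let x0 : sphere (0 : Fin 2 → ℝ) 1 := ⟨fun _ => 1, mem_sphere_zero_iff_norm.2 h1⟩
  refine ⟨(f x0).1, (f x0).2, fun z hz => ?_⟩
  have h2 := hps.constant hf (x := ⟨z.1, mem_sphere_zero_iff_norm.2 hz⟩) (y := x0)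
  exact congrArg Subtype.val h2

/-- the chains in a point -/
theorem con_point {F : Type} [TopologicalSpace F] {n : ℕ} {e : F} {c : Ch n F}
    (hc : c ∈ Con {e} n) : ∃ m : ℤ, c = m • ksx n e := by
  refine ⟨c (ContinuousMap.const (Dl (n + 1)) e), ?_⟩
  rw [T.Con, Finsupp.mem_supported] at hc
  rw [ksx, Finsupp.smul_single, smul_eq_mul, mul_one]
  ext σ
  by_cases hσ : σ = ContinuousMap.const (Dl (n + 1)) e
  · rw [hσ, Finsupp.single_eq_same]
  · rw [Finsupp.single_eq_of_ne hσ]
    by_contra hcon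
    have h1 : σ ∈ c.support := Finsupp.mem_support_iff.2 hcon
    refine hσ ?_
    ext x
    exact hc h1 x

section Alg

variable {R M : Type} [Ring R] [AddCommGroup M] [Module R M]

/-- one more generator -/
theorem rank_sup {P A : Submodule R M} (hPA : P ≤ A) {z : M} (hz : ∀ r : R, r • z ∈ A → r = 0)
    {m : ℕ} (hP : Nonempty (P ≃ₗ[R] (Fin m → R))) :
    Nonempty ((P ⊔ Submodule.span R {z} : Submodule R M) ≃ₗ[R] (Fin (m + 1) → R)) := by
  obtain ⟨u⟩ := hP
  let f : (P × R) →ₗ[R] M := P.subtype.coprod (LinearMap.toSpanSingleton R M z)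
  have hf : Function.Injective f := by
    rw [injective_iff_map_eq_zero]
    rintro ⟨x, r⟩ h
    have h1 : (x : M) + r • z = 0 := h
    have hr : r = 0 := hz r (by
      rw [eq_neg_of_add_eq_zero_right h1]
      exact Submodule.neg_mem _ (hPA x.2))
    subst hr
    rw [zero_smul, add_zero] at h1
    exact Prod.ext (Subtype.ext h1) rfl
  have hrange : LinearMap.range f = P ⊔ Submodule.span R {z} := by
    rw [LinearMap.range_coprod, Submodule.range_subtype, LinearMap.range_toSpanSingleton]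
  have e := (LinearEquiv.ofInjective f hf).trans (LinearEquiv.ofEq _ _ hrange)
  exact ⟨e.symm.trans (((LinearEquiv.prodCongr u (LinearEquiv.refl R R)).trans
    (LinearEquiv.prodComm R _ _)).trans (Fin.consLinearEquiv R (fun _ : Fin (m + 1) => R)))⟩

theorem disjoint_sup {P Z A : Submodule R M} (hA : P ⊔ Z ≤ A) (hd : Disjoint P Z) {z : M}
    (hz : ∀ r : R, r • z ∈ A → r = 0) : Disjoint P (Z ⊔ Submodule.span R {z}) := by
  rw [Submodule.disjoint_def] at hd ⊢
  intro x hx hx'
  obtain ⟨y, hy, w, hw, rfl⟩ := Submodule.mem_sup.1 hx'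
  obtain ⟨r, rfl⟩ := Submodule.mem_span_singleton.1 hw
  have hr : r = 0 := by
    apply hz
    have e : r • z = (y + r • z) - y := by abel
    rw [e]
    exact Submodule.sub_mem _ (hA (Submodule.mem_sup_left hx)) (hA (Submodule.mem_sup_right hy))
  subst hr
  rw [zero_smul, add_zero] at hx ⊢
  exact hd y hx hy

end Alg

section

variable {G W F : Type} [Group G] [TopologicalSpace W] [T2Space W]
  [TopologicalSpace F] [MulAction G F] [ContinuousConstSMul G F] {q : C(F, W)}

theorem fund : SpecFund := FM.main PR.main CC.main1 CL.main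

/-- the cycle of a two-cell with a constant boundary -/
theorem exists_cycle (hq : IsQuotientCoveringMap q G) {A : Set W} {Φ : C(Dk 2, W)} {a : W}
    (ha : a ∈ A) (hΦ : ∀ z : Dk 2, ‖(z : Fin 2 → ℝ)‖ = 1 → Φ z = a) {Ψ : C(Dk 2, F)}
    (hΨ : ∀ x, q (Ψ x) = Φ x) {ζ : Ch 2 (Dk 2)} (hζ : IsFund 2 ζ) :
    ∃ z : SC G 2 F, z.un - push Ψ 2 ζ ∈ Con (q ⁻¹' A) 2 ∧ SC.d G 1 F z = 0 := by
  obtain ⟨e, he, hΨe⟩ := bdry_const hq Ψ a fun z hz => by rw [hΨ]; exact hΦ z hz
  have h1 : bd 1 (push Ψ 2 ζ) ∈ Con {e} 1 := by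
    rw [push_bd]
    exact push_mem (fun x hx => hΨe x hx) hζ.cyc
  obtain ⟨m, hm⟩ := con_point h1
  refine ⟨SC.mk G (push Ψ 2 ζ - m • ksx 2 e), ?_, ?_⟩
  · rw [SC.un_mk, sub_sub_cancel_left]
    refine Submodule.neg_mem _ (Submodule.smul_mem _ _ ?_)
    refine Finsupp.single_mem_supported ℤ _ fun y => ?_
    change q e ∈ A
    rw [he]
    exact ha
  · apply SC.un_inj
    rw [SC.un_d, SC.un_mk, map_sub, map_smul, hm, PR.bd_ksx, if_neg (by decide), one_smul,
      sub_self, SC.un_zero]

theorem ind (hq : IsQuotientCoveringMap q G) {C : Set W} (hC : IsClosed C)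
    {P : ∀ n, Submodule (ZG G) (SC G n F)}
    (hP : IsFinModel (fun n => SC G n F) (fun n => SC.d G n F) (Step.SA hq C) P)
    {B : Set W} {t : ℕ} (h : Sph C B t) :
    IsClosed B ∧ ∃ Z : Submodule (ZG G) (SC G 2 F), Nonempty (Z ≃ₗ[ZG G] (Fin t → ZG G)) ∧
      (∀ z ∈ Z, SC.d G 1 F z = 0) ∧ Disjoint (P 2) Z ∧
      IsFinModel (fun n => SC G n F) (fun n => SC.d G n F) (Step.SA hq B)
        (Function.update P 2 (P 2 ⊔ Z)) := by
  induction h with
  | base =>
    refine ⟨hC, ⊥, ⟨LinearEquiv.ofSubsingleton _ _⟩, ?_, disjoint_bot_right, ?_⟩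
    · intro z hz
      rw [(Submodule.mem_bot _).1 hz, map_zero]
    · rw [sup_bot_eq, Function.update_eq_self]
      exact hP
  | @cell A B t Φ a hAt ha hΦ hat ih =>
    obtain ⟨hA, Z, hZe, hZ0, hdis, hM⟩ := ih
    obtain ⟨Ψ, hΨ⟩ := MX.exists_lift hq Φ
    obtain ⟨ζ, hζ⟩ := fund.1 2
    obtain ⟨z, hz, hz0⟩ := exists_cycle hq (sub hAt ha) hΦ hΨ hζ
    have hz' : DRel (fun n => SC G n F) (fun n => SC.d G n F) (Function.update P 2 (P 2 ⊔ Z)) 2
        z := by
      change SC.d G 1 F z ∈ _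
      rw [hz0]
      exact Submodule.zero_mem _
    obtain ⟨h1, h2⟩ := Step.step MS.main CC.main2 CL.main hq Ψ hA hat hΨ hζ hM.toIsModel z hz hz'
    have hle : P 2 ⊔ Z ≤ Step.SA hq A 2 := by
      have h3 := hM.le 2
      rw [Function.update_self] at h3
      exact h3
    have e : Function.update (Function.update P 2 (P 2 ⊔ Z)) 2
        (Function.update P 2 (P 2 ⊔ Z) 2 ⊔ Submodule.span (ZG G) {z}) =
        Function.update P 2 (P 2 ⊔ (Z ⊔ Submodule.span (ZG G) {z})) := by
      rw [Function.update_idem, Function.update_self, sup_assoc]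
    refine ⟨?_, Z ⊔ Submodule.span (ZG G) {z}, rank_sup (le_sup_right.trans hle) h2 hZe, ?_,
      disjoint_sup hle hdis h2, ?_⟩
    · rw [hat.eq]
      exact hA.union (isCompact_range Φ.continuous).isClosed
    · intro x hx
      obtain ⟨y, hy, w, hw, rfl⟩ := Submodule.mem_sup.1 hx
      obtain ⟨r, rfl⟩ := Submodule.mem_span_singleton.1 hw
      rw [map_add, map_smul, hZ0 y hy, hz0, smul_zero, add_zero]
    · rw [← e]
      refine { toIsModel := h1, free := fun k => ?_, fin := fun k => ?_, bdd := ?_ }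
      · by_cases hk : k = 2
        · subst hk
          rw [Function.update_self]
          exact MX.free_sup (hM.le 2) h2 (hM.free 2)
        · rw [Function.update_of_ne hk]
          exact hM.free k
      · by_cases hk : k = 2
        · subst hk
          rw [Function.update_self]
          exact MX.finite_sup z (hM.fin 2)
        · rw [Function.update_of_ne hk]
          exact hM.fin k
      · obtain ⟨N, hN⟩ := hM.bdd
        refine ⟨max N 2, fun k hk => ?_⟩
        rw [Function.update_of_ne (by have := le_max_right N 2; omega)]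
        exact hN k (lt_of_le_of_lt (le_max_left N 2) hk)

end

/-- ROW TW4 -/
theorem main : SpecChW := by
  intro G W F _ _ _ _ _ _ q hq C t hC h P hP
  obtain ⟨-, Z, h1, h2, h3, h4⟩ := ind hq hC hP h
  refine ⟨Z, h1, h2, h3, ?_⟩
  have e : (Step.SA hq univ : ∀ n, Submodule (ZG G) (SC G n F)) = fun _ => ⊤ := by
    funext n
    rw [eq_top_iff]
    intro x _
    rw [Step.mem_SA, preimage_univ]
    exact PR.Con_univ _
  rw [← e]
  exact h4

end Vale.Agent.P246.R2.H313.TW4
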